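import Vale.Agent.P073.RED.Basic933

/-!
# P073: a linear change of the target of a Sobolev map
-/

namespace Vale.Agent.P073.MM.H694

open MeasureTheory Set Filter Topology Metric Vale.Agent.P073.St Vale.Agent.P073.RED.B933
open scoped ContDiff ENNReal

/-- the composition of a Sobolev map with a linear map of the target -/
theorem sobolev_lin {p : ℝ} {Ω : Set V} {f : V → V} {F : V → Mat} (hp : 1 ≤ p)
    (hv : volume Ω ≠ ⊤) (hF : IsSobolev p Ω f F) (A : Mat) :
    IsSobolev p Ω (fun x => ap A (f x)) (fun x => mm A (F x)) := by
  refine ⟨fun i => ?_, fun i j => ?_, fun φ hφ i j => ?_⟩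
  · exact memLp_finsetSum (μ := volume.restrict Ω) (f := fun j x => A i j * f x j) Finset.univ
      fun j _ => (hF.1 j).const_mul (A i j)
  · exact memLp_finsetSum (μ := volume.restrict Ω) (f := fun k x => A i k * F x k j) Finset.univ
      fun k _ => (hF.2.1 k j).const_mul (A i k)
  · have a1 := fun k => (int_mul hφ (PK.InLp.integrableOn hp hv (hF.2.1 k j))).1
    have a3 := fun k => (int_mul hφ (PK.InLp.integrableOn hp hv (hF.1 k))).2 j
    have e1 : ∀ x, φ x * mm A (F x) i j = ∑ k, A i k * (φ x * F x k j) := fun x => by
      unfold mm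
      rw [Finset.mul_sum]
      exact Finset.sum_congr rfl fun k _ => by ring
    have e2 : ∀ x, pd φ x j * ap A (f x) i = ∑ k, A i k * (pd φ x j * f x k) := fun x => by
      unfold ap
      rw [Finset.mul_sum]
      exact Finset.sum_congr rfl fun k _ => by ring
    unfold int
    simp only [e1, e2]
    rw [integral_finsetSum _ fun k _ => (a1 k).const_mul (A i k),
      integral_finsetSum _ fun k _ => (a3 k).const_mul (A i k), ← Finset.sum_neg_distrib]
    refine Finset.sum_congr rfl fun k _ => ?_
    rw [integral_const_mul, integral_const_mul]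
    have h := hF.2.2 φ hφ k j
    unfold int at h
    rw [h]
    ring

end Vale.Agent.P073.MM.H694
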