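import Vale.Agent.P073.RED.Basic933

/-!
# P073: a linear change of the domain of a Sobolev map
-/

namespace Vale.Agent.P073.MM.H694

open MeasureTheory Set Filter Topology Metric Vale.Agent.P073.St Vale.Agent.P073.RED.B933
open scoped ContDiff ENNReal

/-- change of variables -/
theorem int_image {Ω : Set V} (hΩ : IsOpen Ω) (S : V ≃L[ℝ] V) (w : V → ℝ) :
    int (S '' Ω) w = |(S : V →L[ℝ] V).det| * int Ω fun x => w (S x) := by
  unfold int
  have h := integral_image_eq_integral_abs_det_fderiv_smul (volume : Measure V) hΩ.measurableSet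
    (f := ⇑S) (f' := fun _ => (S : V →L[ℝ] V)) (fun x _ => S.hasFDerivWithinAt)
    S.injective.injOn w
  rw [h, ← integral_const_mul]
  rfl

theorem memLp_dom {p : ℝ} {Ω : Set V} (S : V ≃L[ℝ] V) {w : V → ℝ}
    (hw : InLp p Ω w) : InLp p (S '' Ω) fun y => w (S.symm y) := by
  unfold InLp at hw ⊢
  have hd : LinearMap.det (S.symm : V →ₗ[ℝ] V) ≠ 0 :=
    (LinearEquiv.isUnit_det' S.symm.toLinearEquiv).ne_zero
  have hme : MeasurableEmbedding (fun y : V => S.symm y) := S.symm.toHomeomorph.measurableEmbedding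
  have h1 : Measure.map (fun y : V => S.symm y) (volume.restrict (S '' Ω)) =
      (ENNReal.ofReal |(LinearMap.det (S.symm : V →ₗ[ℝ] V))⁻¹| • (volume : Measure V)).restrict Ω := by
    have h2 : Measure.map (fun y : V => S.symm y) (volume : Measure V) =
        ENNReal.ofReal |(LinearMap.det (S.symm : V →ₗ[ℝ] V))⁻¹| • (volume : Measure V) :=
      Measure.map_linearMap_addHaar_eq_smul_addHaar volume hd
    rw [← h2, hme.restrict_map]
    congr 2
    ext y
    constructor
    · rintro ⟨x, hx, rfl⟩
      show S.symm (S x) ∈ Ω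
      rw [S.symm_apply_apply]; exact hx
    · intro hy
      exact ⟨S.symm y, hy, S.apply_symm_apply y⟩
  have h3 : MemLp w (ENNReal.ofReal p)
      (Measure.map (fun y : V => S.symm y) (volume.restrict (S '' Ω))) := by
    rw [h1, Measure.restrict_smul]
    exact hw.smul_measure ENNReal.ofReal_ne_top
  exact (hme.memLp_map_measure_iff).1 h3

/-- the composition of a Sobolev map with a linear isomorphism of the domain -/
theorem sobolev_dom {p : ℝ} {Ω : Set V} {f : V → V} {F : V → Mat} (hp : 1 ≤ p)
    (hΩ : St.IsBoundedDomain Ω) (S : V ≃L[ℝ] V) {A : Mat} (hA : ∀ v, S.symm v = ap A v)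
    (hF : St.IsSobolev p Ω f F) :
    St.IsSobolev p (S '' Ω) (fun x => f (S.symm x)) (fun x => mm (F (S.symm x)) A) := by
  have hv : volume Ω ≠ ⊤ := (PK.isBounded_of_domain hΩ).measure_lt_top.ne
  refine ⟨fun i => memLp_dom S (hF.1 i), fun i j => ?_, fun φ hφ i j => ?_⟩
  · exact memLp_finsetSum (μ := volume.restrict (S '' Ω))
      (f := fun k y => F (S.symm y) i k * A k j) Finset.univ
      fun k _ => (memLp_dom S (hF.2.1 i k)).mul_const (A k j)
  · obtain ⟨t1, t2, t3⟩ := hφ
    have hs : ContDiff ℝ ∞ φ := contDiffOn_univ.1 t1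
    have hψ : ContDiff ℝ ∞ (fun x => φ (S x)) := hs.comp S.contDiff
    have hφ' : IsTest Ω (fun x => φ (S x)) := by
      refine ⟨contDiffOn_univ.2 hψ, t2.comp_homeomorph S.toHomeomorph, ?_⟩
      have h1 : tsupport (fun x => φ (S x)) = S ⁻¹' tsupport φ := by
        exact tsupport_comp_eq_preimage φ S.toHomeomorph
      rw [h1]
      intro x hx
      obtain ⟨z, hz, hzx⟩ := t3 hx
      rwa [← S.injective hzx]
    rw [int_image hΩ.1, int_image hΩ.1]
    simp only [S.symm_apply_apply]
    have a1 := fun k => (int_mul hφ' (PK.InLp.integrableOn hp hv (hF.2.1 i k))).1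
    have a3 := fun k => (int_mul hφ' (PK.InLp.integrableOn hp hv (hF.1 i))).2 k
    have hpd : ∀ x, pd φ (S x) j = ∑ k, A k j * pd (fun x => φ (S x)) x k := by
      intro x
      rw [PK.pd_eq_fderiv hs]
      have h1 : fderiv ℝ (fun x => φ (S x)) x = (fderiv ℝ φ (S x)).comp (S : V →L[ℝ] V) :=
        ((hs.differentiable (by simp) (S x)).hasFDerivAt.comp x
          (S : V →L[ℝ] V).hasFDerivAt).fderiv
      have h2 : (Pi.single j 1 : V) = S (∑ k, A k j • (Pi.single k 1 : V)) := by
        rw [← S.symm_apply_eq, hA]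
        funext k
        simp [ap, Finset.sum_apply, Pi.single_apply]
      simp only [PK.pd_eq_fderiv hψ, h1]
      conv_lhs => rw [h2]
      simp only [map_sum, map_smul, smul_eq_mul]
      rfl
    have e1 : ∀ x, φ (S x) * mm (F x) A i j = ∑ k, A k j * (φ (S x) * F x i k) := fun x => by
      unfold mm
      rw [Finset.mul_sum]
      exact Finset.sum_congr rfl fun k _ => by ring
    have e2 : ∀ x, pd φ (S x) j * f x i =
        ∑ k, A k j * (pd (fun x => φ (S x)) x k * f x i) := fun x => by
      rw [hpd, Finset.sum_mul]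
      exact Finset.sum_congr rfl fun k _ => by ring
    rw [← mul_neg]
    congr 1
    unfold int
    simp only [e1, e2]
    rw [integral_finsetSum _ fun k _ => (a1 k).const_mul (A k j),
      integral_finsetSum _ fun k _ => (a3 k).const_mul (A k j), ← Finset.sum_neg_distrib]
    refine Finset.sum_congr rfl fun k _ => ?_
    rw [integral_const_mul, integral_const_mul]
    have h := hF.2.2 _ hφ' i k
    unfold int at h
    rw [h]
    ring

end Vale.Agent.P073.MM.H694
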