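import Vale.Agent.P073.MM.H694.Lin
import Vale.Agent.P073.MM.H694.Pert2

/-!
# P073: fine approximability and a linear change of the target
-/

namespace Vale.Agent.P073.MM.H694

open MeasureTheory Set Filter Topology Metric Vale.Agent.P073.St Vale.Agent.P073.AB
open Vale.Agent.P073.SQ (ev)
open scoped ContDiff ENNReal

variable {p : ℝ} {Ω Λ : Set V}

/-- the linear equivalence of an invertible matrix -/
theorem exists_equiv {A : Mat} (hA : NonSing A) : ∃ T : V ≃L[ℝ] V, ∀ v, T v = ap A v := by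
  have hinj : Function.Injective (cl A : V →ₗ[ℝ] V) := by
    rw [injective_iff_map_eq_zero]
    intro v hv
    apply hA v
    funext i
    have h := congrFun hv i
    have h2 : cl A v i = ∑ j, A i j * v j := PK.cl_apply A v i
    show ∑ j, A i j * v j = 0
    rw [← h2]
    exact h
  refine ⟨(LinearEquiv.ofInjectiveEndo (cl A : V →ₗ[ℝ] V) hinj).toContinuousLinearEquiv, ?_⟩
  intro v
  funext i
  exact PK.cl_apply A v i

theorem cl_evA (A : Mat) (j : Fin 3) (i : Fin 3) : cl A (ev j) i = A i j := by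
  rw [PK.cl_apply]
  simp [ev, Pi.single_apply]

/-- fine approximability is invariant under linear changes of the target -/
theorem fa_of_lin (hp : 1 ≤ p) {f : V → V} {F : V → Mat} {A : Mat} {T : V ≃L[ℝ] V}
    (hT : ∀ v, T v = ap A v)
    (h : _root_.Vale.Agent.P073.H694.FA p Ω (T '' Λ) (fun x => ap A (f x)) (fun x => mm A (F x))) :
    _root_.Vale.Agent.P073.H694.FA p Ω Λ f F := by
  intro σ hσ hσ0 ε hε
  set C : ℝ := ‖(T.symm : V →L[ℝ] V)‖ with hC
  have hC0 : 0 ≤ C := norm_nonneg _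
  have hCp : 0 ≤ C ^ p := Real.rpow_nonneg hC0 p
  obtain ⟨P, ⟨k, hk, hPs, hks⟩, hP2, hP3⟩ := h (fun x => σ x / (C + 1)) (hσ.div_const _)
    (fun x hx => div_pos (hσ0 x hx) (by positivity)) (ε / (C ^ p + 1)) (by positivity)
  have hpt : ∀ v, ‖T.symm v‖ ≤ C * ‖v‖ := fun v => (T.symm : V →L[ℝ] V).le_opNorm v
  have hpt2 : ∀ v, ENNReal.ofReal (‖T.symm v‖ ^ p) ≤
      ENNReal.ofReal (C ^ p) * ENNReal.ofReal (‖v‖ ^ p) := by
    intro v
    rw [← ENNReal.ofReal_mul hCp, ← Real.mul_rpow hC0 (norm_nonneg _)]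
    exact ENNReal.ofReal_le_ofReal (Real.rpow_le_rpow (norm_nonneg _) (hpt v) (by linarith))
  have e1 : ∀ x, T.symm (P x) - f x = T.symm (P x - ap A (f x)) := by
    intro x
    rw [map_sub, ← hT, T.symm_apply_apply]
  refine ⟨fun x => T.symm (P x), ⟨fun y => k (T y), ⟨fun x hx => ?_, fun y hy => ?_⟩,
    fun i => ?_, fun i => ?_⟩, fun x hx => ?_, ?_⟩
  · obtain ⟨h1, h2⟩ := hk.1 x hx
    obtain ⟨y, hy, hyx⟩ := h1
    refine ⟨?_, ?_⟩
    · show T.symm (P x) ∈ Λ
      rw [← hyx, T.symm_apply_apply]; exact hy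
    · show k (T (T.symm (P x))) = x
      rw [T.apply_symm_apply]; exact h2
  · obtain ⟨h1, h2⟩ := hk.2 (T y) ⟨y, hy, rfl⟩
    refine ⟨h1, ?_⟩
    show T.symm (P (k (T y))) = y
    rw [h2, T.symm_apply_apply]
  · have hP' : ContDiffOn ℝ ∞ P Ω := contDiffOn_pi.2 hPs
    exact contDiffOn_pi.1 (T.symm.contDiff.comp_contDiffOn hP') i
  · have hk' : ContDiffOn ℝ ∞ k (T '' Λ) := contDiffOn_pi.2 hks
    exact contDiffOn_pi.1 (hk'.comp T.contDiff.contDiffOn fun y hy => ⟨y, hy, rfl⟩) i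
  · show ‖T.symm (P x) - f x‖ ≤ σ x
    rw [e1]
    have h1 := hP2 x hx
    have h2 : 0 < σ x := hσ0 x hx
    calc ‖T.symm (P x - ap A (f x))‖ ≤ C * ‖P x - ap A (f x)‖ := hpt _
      _ ≤ C * (σ x / (C + 1)) := mul_le_mul_of_nonneg_left h1 hC0
      _ ≤ σ x := by
        rw [mul_div_assoc', div_le_iff₀ (by positivity)]
        nlinarith
  · have e2 : ∀ x j, fderiv ℝ (fun x => T.symm (P x)) x (ev j) - cl (F x) (ev j) =
        T.symm (fderiv ℝ P x (ev j) - cl (mm A (F x)) (ev j)) := by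
      intro x j
      have h1 : fderiv ℝ (fun x => T.symm (P x)) x = (T.symm : V →L[ℝ] V).comp (fderiv ℝ P x) :=
        T.symm.comp_fderiv
      have h2 : cl (mm A (F x)) (ev j) = T (cl (F x) (ev j)) := by
        rw [hT]
        funext i
        rw [cl_evA]
        unfold mm ap
        refine Finset.sum_congr rfl fun l _ => ?_
        rw [cl_evA]
      rw [h1, h2, map_sub, T.symm_apply_apply]
      rfl
    have h3 : err p Ω f F (fun x => T.symm (P x)) ≤ ENNReal.ofReal (C ^ p) *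
        err p Ω (fun x => ap A (f x)) (fun x => mm A (F x)) P := by
      unfold err
      rw [mul_add, Finset.mul_sum, ← lintegral_const_mul' _ _ ENNReal.ofReal_ne_top]
      refine add_le_add (lintegral_mono fun x => ?_) (Finset.sum_le_sum fun j _ => ?_)
      · show ENNReal.ofReal (‖T.symm (P x) - f x‖ ^ p) ≤ _
        rw [e1]
        exact hpt2 _
      · rw [← lintegral_const_mul' _ _ ENNReal.ofReal_ne_top]
        refine lintegral_mono fun x => ?_
        simp only [e2]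
        exact hpt2 _
    refine h3.trans ((mul_le_mul_right hP3 _).trans ?_)
    rw [← ENNReal.ofReal_mul hCp]
    apply ENNReal.ofReal_le_ofReal
    rw [mul_div_assoc', div_le_iff₀ (by positivity)]
    nlinarith

/-- the image of a bounded domain under a linear isomorphism is a bounded domain -/
theorem domain_lin (hΛ : St.IsBoundedDomain Λ) (T : V ≃L[ℝ] V) : St.IsBoundedDomain (T '' Λ) := by
  refine ⟨T.toHomeomorph.isOpenMap _ hΛ.1, hΛ.2.1.image _ T.continuous.continuousOn, ?_⟩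
  obtain ⟨D, hD⟩ := ((T : V →L[ℝ] V).lipschitz.isBounded_image
    (PK.isBounded_of_domain hΛ)).exists_norm_le
  refine ⟨Real.sqrt (∑ _i : Fin 3, D ^ 2), fun x hx => ?_⟩
  apply Real.sqrt_le_sqrt
  refine Finset.sum_le_sum fun i _ => ?_
  have h1 : |x i| ≤ D := (norm_le_pi_norm x i).trans (hD x hx)
  rw [← sq_abs]
  exact pow_le_pow_left₀ (abs_nonneg _) h1 2

/-- homeomorphisms which are locally monotone after a linear change of the target -/
theorem fa_of_monoA (hB : SpecPSD) (hS : SpecSmooth) {f : V → V}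
    {F : V → Mat} (hp : 1 ≤ p) (hΩ : St.IsBoundedDomain Ω) (hΛ : St.IsBoundedDomain Λ)
    (hf : St.IsHomeo Ω Λ f) (hF : St.IsSobolev p Ω f F) {A : Mat} (hA : NonSing A)
    (hmon : LocMonotone Ω fun x => ap A (f x)) :
    _root_.Vale.Agent.P073.H694.FA p Ω Λ f F := by
  obtain ⟨T, hT⟩ := exists_equiv hA
  refine fa_of_lin hp hT ?_
  have hv : volume Ω ≠ ⊤ := (PK.isBounded_of_domain hΩ).measure_lt_top.ne
  refine fa_of_mono hB hS hp hΩ (domain_lin hΛ T) ?_ (sobolev_lin hp hv hF A) hmon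
  obtain ⟨k, hk, hfc, hkc⟩ := hf
  refine ⟨fun y => k (T.symm y), ⟨fun x hx => ?_, fun y hy => ?_⟩, ?_, ?_⟩
  · refine ⟨⟨f x, (hk.1 x hx).1, hT _⟩, ?_⟩
    show k (T.symm (ap A (f x))) = x
    rw [← hT, T.symm_apply_apply]
    exact (hk.1 x hx).2
  · obtain ⟨z, hz, rfl⟩ := hy
    show k (T.symm (T z)) ∈ Ω ∧ ap A (f (k (T.symm (T z)))) = T z
    rw [T.symm_apply_apply, (hk.2 z hz).2, hT]
    exact ⟨(hk.2 z hz).1, rfl⟩
  · simp only [← hT]
    exact T.continuous.comp_continuousOn hfc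
  · refine hkc.comp T.symm.continuous.continuousOn ?_
    rintro _ ⟨z, hz, rfl⟩
    rw [T.symm_apply_apply]
    exact hz

end Vale.Agent.P073.MM.H694
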