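import Vale.Agent.P073.MM.Rows
import Vale.Agent.P073.H694.GlueB

/-!
# P073, locally monotone maps: the perturbation
-/

namespace Vale.Agent.P073.MM.H694

open MeasureTheory Set Filter Topology Metric Vale.Agent.P073.St Vale.Agent.P073.AB
open Vale.Agent.P073.SQ (ev)
open Vale.Agent.P073.MM
open scoped ContDiff ENNReal

theorem rpow_add3_le {p a b c : ℝ} (hp : 1 ≤ p) (ha : 0 ≤ a) (hb : 0 ≤ b) (hc : 0 ≤ c) :
    (a + b + c) ^ p ≤ 3 ^ p * (a ^ p + b ^ p + c ^ p) := by
  have hp0 : 0 ≤ p := by linarith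
  have h1 : a + b + c ≤ 3 * max a (max b c) := by
    have := le_max_left a (max b c)
    have := le_max_right a (max b c)
    have := le_max_left b c
    have := le_max_right b c
    linarith
  have h2 : (max a (max b c)) ^ p ≤ a ^ p + b ^ p + c ^ p := by
    have ea := Real.rpow_nonneg ha p
    have eb := Real.rpow_nonneg hb p
    have ec := Real.rpow_nonneg hc p
    rcases max_cases a (max b c) with ⟨h, -⟩ | ⟨h, -⟩
    · rw [h]; linarith
    · rw [h]
      rcases max_cases b c with ⟨h, -⟩ | ⟨h, -⟩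
      · rw [h]; linarith
      · rw [h]; linarith
  calc (a + b + c) ^ p ≤ (3 * max a (max b c)) ^ p :=
        Real.rpow_le_rpow (by linarith) h1 hp0
    _ = 3 ^ p * (max a (max b c)) ^ p :=
        Real.mul_rpow (by norm_num) (ha.trans (le_max_left _ _))
    _ ≤ _ := by gcongr

theorem lip_of_kappa {W : Set V} {κ : V → ℝ} (hκ : ContDiff ℝ ∞ κ)
    (h1 : ∀ y ∈ W, 0 < κ y ∧ ‖fderiv ℝ κ y‖ ≤ 1) (h0 : ∀ y ∉ W, κ y = 0) (x y : V) :
    |κ x - κ y| ≤ ‖x - y‖ := by
  have hnn : ∀ z, 0 ≤ κ z := fun z => by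
    by_cases hz : z ∈ W
    · exact (h1 z hz).1.le
    · rw [h0 z hz]
  have hb : ∀ z, ‖fderiv ℝ κ z‖₊ ≤ 1 := by
    intro z
    by_cases hz : z ∈ W
    · exact (h1 z hz).2
    · have hmin : IsLocalMin κ z := by
        refine Filter.Eventually.of_forall fun w => ?_
        show κ z ≤ κ w
        rw [h0 z hz]
        exact hnn w
      rw [hmin.fderiv_eq_zero, nnnorm_zero]
      exact zero_le_one
  have hl := lipschitzWith_of_nnnorm_fderiv_le (𝕜 := ℝ) (hκ.differentiable (by simp)) hb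
  have := hl.dist_le_mul x y
  rw [Real.dist_eq, dist_eq_norm] at this
  simpa using this

theorem specPert (hB : SpecPSD) (hS : SpecSmooth) (hN : SpecNear) : SpecPert := by
  intro p U W f F hp hU hUb hW hWc hf hF hmon σ hσ hσ0 ε hε
  have hp0 : 0 < p := by linarith
  have hev : ∀ j, ‖ev j‖ = 1 := fun j => by unfold ev; rw [Pi.norm_single]; simp
  obtain ⟨k, ⟨hk1, hk2⟩, hfc, hkc⟩ := id hf
  have hPSD : PSD U F := hB p U f F hp hU hfc hF hmon
  obtain ⟨R, hR1, hR⟩ : ∃ R : ℝ, 1 ≤ R ∧ ∀ x ∈ U, ‖x‖ ≤ R := by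
    obtain ⟨R, hR⟩ := hUb.exists_norm_le
    exact ⟨max R 1, le_max_right _ _, fun x hx => (hR x hx).trans (le_max_left _ _)⟩
  have hR0 : 0 < R := by linarith
  have hv : volume U ≠ ⊤ := hUb.measure_lt_top.ne
  set EF : ℝ≥0∞ := ∫⁻ x in U, ENNReal.ofReal (‖cl (F x)‖ ^ p) with hEF
  have hFe : EF ≠ ⊤ := by
    have h1 := PK.IsSob.lintegral_ne_top hp hF
    simp_rw [hEF, ofReal_norm_rpow hp0.le]
    exact h1
  -- the constant `t`
  obtain ⟨t, ht, ht1, htε⟩ : ∃ t : ℝ, 0 < t ∧ t ≤ 1 ∧ ENNReal.ofReal (t ^ p) * volume U +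
      3 * (ENNReal.ofReal (3 ^ p) * (ENNReal.ofReal (2 ^ p) * ENNReal.ofReal t +
        ENNReal.ofReal (t ^ p) * EF + ENNReal.ofReal (t ^ p) * volume U)) ≤
          ENNReal.ofReal ε := by
    have t0 : Tendsto (fun n : ℕ => 1 / ((n : ℝ) + 1)) atTop (𝓝 0) :=
      tendsto_one_div_add_atTop_nhds_zero_nat
    have t1 : Tendsto (fun n : ℕ => ENNReal.ofReal (1 / ((n : ℝ) + 1))) atTop (𝓝 0) := by
      simpa using ENNReal.tendsto_ofReal t0
    have t2 : Tendsto (fun n : ℕ => ENNReal.ofReal ((1 / ((n : ℝ) + 1)) ^ p)) atTop (𝓝 0) := by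
      have h2 : Tendsto (fun n : ℕ => (1 / ((n : ℝ) + 1)) ^ p) atTop (𝓝 (0 ^ p)) :=
        t0.rpow_const (Or.inr hp0.le)
      rw [Real.zero_rpow hp0.ne'] at h2
      simpa using ENNReal.tendsto_ofReal h2
    have t3 := ENNReal.Tendsto.mul_const (b := volume U) t2 (Or.inr hv)
    rw [zero_mul] at t3
    have t4 := ENNReal.Tendsto.mul_const (b := EF) t2 (Or.inr hFe)
    rw [zero_mul] at t4
    have t5 := ENNReal.Tendsto.const_mul (a := ENNReal.ofReal (2 ^ p)) t1
      (Or.inr ENNReal.ofReal_ne_top)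
    rw [mul_zero] at t5
    have t6 := ENNReal.Tendsto.const_mul (a := ENNReal.ofReal (3 ^ p)) ((t5.add t4).add t3)
      (Or.inr ENNReal.ofReal_ne_top)
    have t7 := t3.add (ENNReal.Tendsto.const_mul (a := 3) t6 (Or.inr (by norm_num)))
    simp only [add_zero, mul_zero] at t7
    obtain ⟨n, hn⟩ := (t7.eventually (gt_mem_nhds (ENNReal.ofReal_pos.2 hε))).exists
    refine ⟨1 / ((n : ℝ) + 1), by positivity, ?_, hn.le⟩
    rw [div_le_one (by positivity)]
    have : (0 : ℝ) ≤ n := Nat.cast_nonneg n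
    linarith
  -- the closeness
  set s : V → ℝ := fun x => min (min (σ x) t) ((1 / 4) * min (infDist (f x) Wᶜ) 1) with hs
  have hdc : ContinuousOn (fun x => infDist (f x) Wᶜ) U :=
    (continuous_infDist_pt _).comp_continuousOn hfc
  have hdpos : ∀ x ∈ U, 0 < infDist (f x) Wᶜ := fun x hx =>
    (hW.isClosed_compl.notMem_iff_infDist_pos hWc).1 fun h => h (hk1 x hx).1
  have hsc : ContinuousOn s U :=
    (hσ.inf continuousOn_const).inf (continuousOn_const.mul (hdc.inf continuousOn_const))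
  have hs0 : ∀ x ∈ U, 0 < s x := fun x hx =>
    lt_min (lt_min (hσ0 x hx) ht) (mul_pos (by norm_num) (lt_min (hdpos x hx) one_pos))
  have hkm : MapsTo k W U := fun y hy => (hk2 y hy).1
  set δ : V → ℝ := fun y => min (t / (24 * R)) (s (k y) / (8 * R)) with hδ
  have hδc : ContinuousOn δ W := continuousOn_const.inf ((hsc.comp hkc hkm).div_const _)
  have hδ0 : ∀ y ∈ W, 0 < δ y := fun y hy =>
    lt_min (by positivity) (div_pos (hs0 _ (hkm hy)) (by positivity))
  obtain ⟨κ, hκs, hκ, hκ0⟩ := Vale.Agent.P073.exists_kappa hW hδc hδ0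
  have hδt : ∀ y, δ y ≤ t / (24 * R) := fun y => min_le_left _ _
  have hδt1 : t / (24 * R) ≤ t / 24 := by
    apply div_le_div_of_nonneg_left ht.le (by norm_num)
    linarith
  have hlip := lip_of_kappa (W := W) hκs (fun y hy => ⟨(hκ y hy).1, by
    have h1 := (hκ y hy).2.2.le
    have h2 := hδt y
    linarith⟩) hκ0
  set e : V → ℝ := fun x => min (s x / 8) (κ (f x) / 4) with he
  have hec : ContinuousOn e U := (hsc.div_const 8).inf
    ((hκs.continuous.comp_continuousOn hfc).div_const 4)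
  have he0 : ∀ x ∈ U, 0 < e x := fun x hx =>
    lt_min (by have := hs0 x hx; linarith) (by have := (hκ _ (hk1 x hx).1).1; linarith)
  obtain ⟨g, hgs, hge, hgE, hgm⟩ := hS p U f F e t hp hU hUb hfc hF hPSD hec he0 ht
  set P : V → V := fun x => g x + κ (g x) • x with hP
  -- facts at the points
  have hgW : ∀ x ∈ U, g x ∈ W := by
    intro x hx
    by_contra hc
    have h1 := infDist_le_dist_of_mem (x := f x) (show g x ∈ Wᶜ from hc)
    rw [dist_eq_norm, norm_sub_rev] at h1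
    have h2 := (hge x hx).trans (min_le_left _ _)
    have h3 : s x ≤ (1 / 4) * infDist (f x) Wᶜ := (min_le_right _ _).trans (by
      gcongr
      exact min_le_left _ _)
    have h4 := hdpos x hx
    linarith
  have hκg : ∀ x ∈ U, 3 * e x ≤ κ (g x) ∧ κ (g x) ≤ 2 * κ (f x) := by
    intro x hx
    have h1 := hlip (g x) (f x)
    have h2 := (hge x hx)
    have h3 : e x ≤ κ (f x) / 4 := min_le_right _ _
    have h4 := (hκ _ (hk1 x hx).1).1
    rw [abs_le] at h1
    constructor <;> linarith [h1.1, h1.2]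
  have hκf : ∀ x ∈ U, κ (f x) ≤ s x / (8 * R) := by
    intro x hx
    have h1 := (hκ _ (hk1 x hx).1).2.1.le.trans (min_le_right _ _)
    rwa [(hk1 x hx).2] at h1
  have hPf : ∀ x ∈ U, ‖P x - f x‖ ≤ s x := by
    intro x hx
    have h1 : P x - f x = (g x - f x) + κ (g x) • x := by
      show g x + κ (g x) • x - f x = _
      exact add_sub_right_comm _ _ _
    rw [h1]
    refine (norm_add_le _ _).trans ?_
    rw [norm_smul, Real.norm_of_nonneg ((hκ _ (hgW x hx)).1.le)]
    have h2 := (hge x hx).trans (min_le_left _ _)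
    have h3 : κ (g x) * ‖x‖ ≤ (2 * (s x / (8 * R))) * R := by
      apply mul_le_mul ((hκg x hx).2.trans (by linarith [hκf x hx])) (hR x hx) (norm_nonneg _)
      have := hs0 x hx
      positivity
    have h4 : (2 * (s x / (8 * R))) * R = s x / 4 := by field_simp; ring
    have := hs0 x hx
    linarith
  have hgd : ∀ x ∈ U, HasFDerivAt g (fderiv ℝ g x) x := fun x hx =>
    ((hgs.contDiffAt (hU.mem_nhds hx)).differentiableAt (by simp)).hasFDerivAt
  have hPd : ∀ x ∈ U, HasFDerivAt P (fderiv ℝ g x + (κ (g x) • ContinuousLinearMap.id ℝ V +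
      ((fderiv ℝ κ (g x)).comp (fderiv ℝ g x)).smulRight x)) x := by
    intro x hx
    have h1 : HasFDerivAt κ (fderiv ℝ κ (g x)) (g x) :=
      (hκs.differentiable (by simp)).differentiableAt.hasFDerivAt
    have h2 : HasFDerivAt (fun z => κ (g z)) ((fderiv ℝ κ (g x)).comp (fderiv ℝ g x)) x :=
      h1.comp x (hgd x hx)
    exact (hgd x hx).add (h2.smul (hasFDerivAt_id x))
  have hPs : ContDiffOn ℝ ∞ P U :=
    hgs.add ((hκs.comp_contDiffOn hgs).smul contDiffOn_id)
  have hdκ : ∀ x ∈ U, ‖fderiv ℝ κ (g x)‖ * ‖x‖ ≤ t / 24 := by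
    intro x hx
    have h1 := (hκ _ (hgW x hx)).2.2.le.trans (hδt _)
    calc ‖fderiv ℝ κ (g x)‖ * ‖x‖ ≤ t / (24 * R) * R :=
          mul_le_mul h1 (hR x hx) (norm_nonneg _) (by positivity)
      _ = t / 24 := by field_simp
  -- injectivity
  have hPi : ∀ x ∈ U, ∀ v, fderiv ℝ P x v = 0 → v = 0 := by
    intro x hx h hh
    rw [(hPd x hx).fderiv] at hh
    set v := fderiv ℝ g x h with hvd
    have h1 : v + (κ (g x) • h + (fderiv ℝ κ (g x) v) • x) = 0 := hh
    set r : V := (fderiv ℝ κ (g x) v) • x with hr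
    have h2 : v = -(κ (g x) • h) - r := by
      have : v = -(κ (g x) • h + r) := eq_neg_of_add_eq_zero_left h1
      rw [this]; abel
    have hκp := (hκ _ (hgW x hx)).1
    have h3 : ‖r‖ ≤ (1 / 24) * ‖v‖ := by
      rw [hr, norm_smul]
      calc ‖fderiv ℝ κ (g x) v‖ * ‖x‖ ≤ (‖fderiv ℝ κ (g x)‖ * ‖v‖) * ‖x‖ := by
            gcongr
            exact ContinuousLinearMap.le_opNorm _ _
        _ = (‖fderiv ℝ κ (g x)‖ * ‖x‖) * ‖v‖ := by ring
        _ ≤ (1 / 24) * ‖v‖ := by
            gcongr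
            exact (hdκ x hx).trans (by linarith)
    have h4 : ‖v‖ ≤ κ (g x) * ‖h‖ + ‖r‖ := by
      rw [h2]
      refine (norm_sub_le _ _).trans ?_
      rw [norm_neg, norm_smul, Real.norm_of_nonneg hκp.le]
    have h5 : ‖r‖ ≤ κ (g x) * ‖h‖ / 12 := by
      have := norm_nonneg r
      have := mul_nonneg hκp.le (norm_nonneg h)
      linarith
    have h6 := hgm x hx h
    have h7 : ∑ i, h i * v i = -(κ (g x) * ∑ i, h i ^ 2) - ∑ i, h i * r i := by
      rw [h2]
      simp only [Pi.sub_apply, Pi.neg_apply, Pi.smul_apply, smul_eq_mul, Finset.mul_sum,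
        ← Finset.sum_neg_distrib, ← Finset.sum_sub_distrib]
      exact Finset.sum_congr rfl fun i _ => by ring
    have h8 : ‖h‖ ^ 2 ≤ ∑ i, h i ^ 2 := by
      rcases (norm_nonneg h).eq_or_lt with h0 | h0
      · rw [← h0]
        exact (by norm_num : (0 : ℝ) ^ 2 = 0).le.trans
          (Finset.sum_nonneg fun i _ => sq_nonneg (h i))
      · obtain ⟨i, hi⟩ : ∃ i, ‖h i‖ = ‖h‖ := by
          obtain ⟨i, -, hi⟩ := Finset.exists_max_image (Finset.univ : Finset (Fin 3))
            (fun i => ‖h i‖) ⟨0, Finset.mem_univ _⟩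
          refine ⟨i, le_antisymm (norm_le_pi_norm h i) ?_⟩
          exact (pi_norm_le_iff_of_nonneg (norm_nonneg _)).2 fun j => hi j (Finset.mem_univ _)
        rw [← hi, Real.norm_eq_abs, sq_abs]
        exact Finset.single_le_sum (f := fun i => h i ^ 2) (fun i _ => sq_nonneg _)
          (Finset.mem_univ i)
    have h9 : |∑ i, h i * r i| ≤ 3 * (‖h‖ * ‖r‖) := by
      refine (Finset.abs_sum_le_sum_abs _ _).trans ?_
      calc ∑ i, |h i * r i| ≤ ∑ _i : Fin 3, ‖h‖ * ‖r‖ := by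
            refine Finset.sum_le_sum fun i _ => ?_
            rw [abs_mul]
            exact mul_le_mul (norm_le_pi_norm h i) (norm_le_pi_norm r i) (abs_nonneg _)
              (norm_nonneg _)
        _ = 3 * (‖h‖ * ‖r‖) := by simp
    rw [h7] at h6
    rw [abs_le] at h9
    have h10 : 3 * (‖h‖ * ‖r‖) ≤ κ (g x) * ‖h‖ ^ 2 / 4 := by
      have : ‖h‖ * ‖r‖ ≤ ‖h‖ * (κ (g x) * ‖h‖ / 12) := by gcongr
      calc 3 * (‖h‖ * ‖r‖) ≤ 3 * (‖h‖ * (κ (g x) * ‖h‖ / 12)) := by linarith
        _ = κ (g x) * ‖h‖ ^ 2 / 4 := by ring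
    have h11 : κ (g x) * ‖h‖ ^ 2 ≤ κ (g x) * ∑ i, h i ^ 2 := by gcongr
    have h12 : e x * ‖h‖ ^ 2 ≤ κ (g x) / 3 * ‖h‖ ^ 2 := by
      apply mul_le_mul_of_nonneg_right _ (sq_nonneg _)
      linarith [(hκg x hx).1]
    have h13 : κ (g x) * ‖h‖ ^ 2 ≤ 0 := by
      linarith [h9.1, h9.2]
    have h14 : ‖h‖ ^ 2 ≤ 0 := by
      by_contra hc
      push Not at hc
      have := mul_pos hκp hc
      linarith
    have h15 : ‖h‖ = 0 := by
      have := sq_nonneg ‖h‖
      exact pow_eq_zero_iff (two_ne_zero) |>.1 (le_antisymm h14 this)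
    exact norm_eq_zero.1 h15
  have hPD : St.IsDiffeo U W P := hN U W f P hU hW hWc hf hPs hPi fun x hx =>
    (hPf x hx).trans (min_le_right _ _)
  -- the estimate
  have hpt : ∀ x ∈ U, ‖fderiv ℝ P x - cl (F x)‖ ≤
      2 * ‖fderiv ℝ g x - cl (F x)‖ + t * ‖cl (F x)‖ + t := by
    intro x hx
    rw [(hPd x hx).fderiv]
    have e1 : fderiv ℝ g x + (κ (g x) • ContinuousLinearMap.id ℝ V +
        ((fderiv ℝ κ (g x)).comp (fderiv ℝ g x)).smulRight x) - cl (F x) =
        (fderiv ℝ g x - cl (F x)) + (κ (g x) • ContinuousLinearMap.id ℝ V +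
        ((fderiv ℝ κ (g x)).comp (fderiv ℝ g x)).smulRight x) := by abel
    rw [e1]
    refine (norm_add_le _ _).trans ?_
    have e2 : ‖κ (g x) • ContinuousLinearMap.id ℝ V‖ ≤ t := by
      rw [norm_smul, Real.norm_of_nonneg (hκ _ (hgW x hx)).1.le]
      have h1 := (hκ _ (hgW x hx)).2.1.le.trans (hδt _)
      have h2 : ‖ContinuousLinearMap.id ℝ V‖ ≤ 1 := ContinuousLinearMap.norm_id_le
      have h3 := (hκ _ (hgW x hx)).1
      calc κ (g x) * ‖ContinuousLinearMap.id ℝ V‖ ≤ κ (g x) * 1 := by gcongr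
        _ ≤ t := by linarith
    have e3 : ‖((fderiv ℝ κ (g x)).comp (fderiv ℝ g x)).smulRight x‖ ≤
        t / 24 * (‖fderiv ℝ g x - cl (F x)‖ + ‖cl (F x)‖) := by
      rw [ContinuousLinearMap.norm_smulRight_apply]
      have h1 : ‖fderiv ℝ g x‖ ≤ ‖fderiv ℝ g x - cl (F x)‖ + ‖cl (F x)‖ := by
        have := norm_add_le (fderiv ℝ g x - cl (F x)) (cl (F x))
        rwa [sub_add_cancel] at this
      calc ‖(fderiv ℝ κ (g x)).comp (fderiv ℝ g x)‖ * ‖x‖
          ≤ (‖fderiv ℝ κ (g x)‖ * ‖fderiv ℝ g x‖) * ‖x‖ := by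
            gcongr
            exact ContinuousLinearMap.opNorm_comp_le _ _
        _ = (‖fderiv ℝ κ (g x)‖ * ‖x‖) * ‖fderiv ℝ g x‖ := by ring
        _ ≤ _ := mul_le_mul (hdκ x hx) h1 (norm_nonneg _) (by positivity)
    have e4 := norm_add_le (κ (g x) • ContinuousLinearMap.id ℝ V)
      (((fderiv ℝ κ (g x)).comp (fderiv ℝ g x)).smulRight x)
    have e5 : t / 24 * (‖fderiv ℝ g x - cl (F x)‖ + ‖cl (F x)‖) ≤
        1 * ‖fderiv ℝ g x - cl (F x)‖ + t * ‖cl (F x)‖ := by
      rw [mul_add]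
      apply add_le_add
      · apply mul_le_mul_of_nonneg_right _ (norm_nonneg _)
        linarith
      · apply mul_le_mul_of_nonneg_right _ (norm_nonneg _)
        linarith
    linarith
  have hmF : AEMeasurable (fun x => ENNReal.ofReal (‖cl (F x)‖ ^ p)) (volume.restrict U) :=
    ((PK.IsSob.aesm hF).norm.aemeasurable.pow_const p).ennreal_ofReal
  have hEP : ∫⁻ x in U, ENNReal.ofReal (‖fderiv ℝ P x - cl (F x)‖ ^ p) ≤
      ENNReal.ofReal (3 ^ p) * (ENNReal.ofReal (2 ^ p) * ENNReal.ofReal t +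
        ENNReal.ofReal (t ^ p) * EF + ENNReal.ofReal (t ^ p) * volume U) := by
    calc ∫⁻ x in U, ENNReal.ofReal (‖fderiv ℝ P x - cl (F x)‖ ^ p)
        ≤ ∫⁻ x in U, ENNReal.ofReal (3 ^ p) *
            (ENNReal.ofReal (2 ^ p) * ENNReal.ofReal (‖fderiv ℝ g x - cl (F x)‖ ^ p) +
              ENNReal.ofReal (t ^ p) * ENNReal.ofReal (‖cl (F x)‖ ^ p) +
              ENNReal.ofReal (t ^ p)) := by
          refine setLIntegral_mono' hU.measurableSet fun x hx => ?_
          rw [← ENNReal.ofReal_mul (by positivity), ← ENNReal.ofReal_mul (by positivity),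
            ← ENNReal.ofReal_add (by positivity) (by positivity),
            ← ENNReal.ofReal_add (by positivity) (by positivity),
            ← ENNReal.ofReal_mul (by positivity)]
          apply ENNReal.ofReal_le_ofReal
          refine (Real.rpow_le_rpow (norm_nonneg _) (hpt x hx) hp0.le).trans ?_
          refine (rpow_add3_le hp (by positivity) (by positivity) ht.le).trans ?_
          rw [Real.mul_rpow (by norm_num) (norm_nonneg _), Real.mul_rpow ht.le (norm_nonneg _)]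
      _ = ENNReal.ofReal (3 ^ p) * (ENNReal.ofReal (2 ^ p) *
            (∫⁻ x in U, ENNReal.ofReal (‖fderiv ℝ g x - cl (F x)‖ ^ p)) +
              ENNReal.ofReal (t ^ p) * EF + ENNReal.ofReal (t ^ p) * volume U) := by
          rw [lintegral_const_mul' _ _ ENNReal.ofReal_ne_top,
            lintegral_add_right' _ aemeasurable_const,
            lintegral_add_right' _ (hmF.const_mul _),
            lintegral_const_mul' _ _ ENNReal.ofReal_ne_top,
            lintegral_const_mul' _ _ ENNReal.ofReal_ne_top, setLIntegral_const]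
      _ ≤ _ := by gcongr
  refine ⟨P, hPD, fun x hx => (hPf x hx).trans ((min_le_left _ _).trans (min_le_left _ _)),
    le_trans ?_ htε⟩
  unfold err
  refine add_le_add ?_ ?_
  · calc ∫⁻ x in U, ENNReal.ofReal (‖P x - f x‖ ^ p)
        ≤ ∫⁻ _x in U, ENNReal.ofReal (t ^ p) := by
          refine setLIntegral_mono' hU.measurableSet fun x hx => ?_
          exact ENNReal.ofReal_le_ofReal (Real.rpow_le_rpow (norm_nonneg _)
            ((hPf x hx).trans ((min_le_left _ _).trans (min_le_right _ _))) hp0.le)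
      _ = ENNReal.ofReal (t ^ p) * volume U := setLIntegral_const _ _
  · calc ∑ j, ∫⁻ x in U, ENNReal.ofReal (‖fderiv ℝ P x (ev j) - cl (F x) (ev j)‖ ^ p)
        ≤ ∑ _j : Fin 3, (ENNReal.ofReal (3 ^ p) * (ENNReal.ofReal (2 ^ p) * ENNReal.ofReal t +
            ENNReal.ofReal (t ^ p) * EF + ENNReal.ofReal (t ^ p) * volume U)) := by
          refine Finset.sum_le_sum fun j _ => le_trans (lintegral_mono fun x => ?_) hEP
          apply ENNReal.ofReal_le_ofReal
          apply Real.rpow_le_rpow (norm_nonneg _) _ hp0.le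
          have h1 := ContinuousLinearMap.le_opNorm (fderiv ℝ P x - cl (F x)) (ev j)
          rw [hev, mul_one] at h1
          exact h1
      _ = _ := by simp

end Vale.Agent.P073.MM.H694
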