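import Vale.Agent.P073.MM.H694.Tower6Defs
import Vale.Agent.P073.MM.H694.Pert
import Vale.Agent.P073.H694.Tower

/-!
# P073: towers of small singular sets, with locally monotone maps
-/

namespace Vale.Agent.P073.H694.V6

open MeasureTheory Set Filter Topology Metric Vale.Agent.P073.St Vale.Agent.P073.AB
open Vale.Agent.P073.H655
open Vale.Agent.P073.H655.V4 (Reg Small)
open Vale.Agent.P073.MM (LocMonotone SpecPert)

variable {p : ℝ} {Ω Λ : Set V}

/-- **towers are finely approximable** -/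
theorem fa_of_tower (hP : SpecPert) (hp : 1 ≤ p) {f : V → V} (h : Tower p Ω Λ f) :
    ∀ F : V → Mat, St.IsBoundedDomain Ω → St.IsBoundedDomain Λ → St.IsHomeo Ω Λ f →
      St.IsSobolev p Ω f F → H694.FA p Ω Λ f F := by
  induction h with
  | @reg Ω Λ f h =>
    intro F hΩ hΛ hf hF
    rcases h with h | h
    · exact H694.fa_of_reg fineT hp hΩ hΛ hf hF h
    · have hΛc : Λᶜ.Nonempty := by
        rw [nonempty_compl]
        rintro rfl
        exact NormedSpace.unbounded_univ ℝ V (PK.isBounded_of_domain hΛ)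
      exact hP p Ω Λ f F hp hΩ.1 (PK.isBounded_of_domain hΩ) hΛ.1 hΛc hf hF h
  | step hB hBo hs _ ih =>
    intro F hΩ hΛ hf hF
    have hn := V4.small_cases hΩ hB hf hF hs
    obtain ⟨d1, d2⟩ := dom_of_small hΩ hΛ hB hBo hf (hn.imp And.right id)
    exact FA.step fineT hp hΩ hΛ hB hBo hf hF
      (ih F d1 d2 (homeo_restrict hB hf) (RED.isSobolev_mono hBo sdiff_subset hF)) hn

/-- **towers are approximable** -/
theorem tower_approximable (hP : SpecPert) (hp : 1 ≤ p) (hΩ : St.IsBoundedDomain Ω)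
    (hΛ : St.IsBoundedDomain Λ) {f : V → V} {F : V → Mat} (hf : St.IsHomeo Ω Λ f)
    (hF : St.IsSobolev p Ω f F) (h : Tower p Ω Λ f) : St.DiffeoApproximable p Ω Λ f F :=
  (fa_of_tower hP hp h F hΩ hΛ hf hF).approximable hp hΩ hΛ hf hF

theorem tower_of_tower {f : V → V} (h : H694.Tower p Ω Λ f) : Tower p Ω Λ f := by
  induction h with
  | reg h => exact Tower.reg (Or.inl h)
  | step hB hBo hs _ ih => exact Tower.step hB hBo hs ih

/-- **the equivalence** -/
theorem tower_iff (hP : SpecPert) (hp : 1 ≤ p) (hΩ : St.IsBoundedDomain Ω)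
    (hΛ : St.IsBoundedDomain Λ) {f : V → V} {F : V → Mat} (hf : St.IsHomeo Ω Λ f)
    (hF : St.IsSobolev p Ω f F) :
    TowerApproximable p Ω Λ f F ↔ St.DiffeoApproximable p Ω Λ f F := by
  constructor
  · rintro ⟨g, G, hg, hlim⟩
    exact approximable_of_limit hp hΩ hΛ hf hF (fun k => (hg k).2.1)
      (fun k => tower_approximable hP hp hΩ hΛ (hg k).1 (hg k).2.1 (hg k).2.2) hlim
  · intro h
    obtain ⟨g, G, hg, hlim⟩ := (H694.tower_iff' hp hΩ hΛ hf hF).2 h
    exact ⟨g, G, fun k => ⟨(hg k).1, (hg k).2.1, tower_of_tower (hg k).2.2⟩, hlim⟩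

end Vale.Agent.P073.H694.V6
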