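import Vale.Agent.P073.MM.H694.Tower7
import Vale.Agent.P073.MM.H307.MollLp
import Vale.Agent.P073.MM.Smooth2

/-!
# P073: towers of small singular sets, with locally monotone maps, unconditionally
-/

namespace Vale.Agent.P073.H694.V6

open MeasureTheory Set Filter Topology Metric Vale.Agent.P073.St Vale.Agent.P073.AB

variable {p : ℝ} {Ω Λ : Set V}

/-- **the smoothing row** -/
theorem specSmooth_all : MM.SpecSmooth := MM.smooth MM.H307.mollLp

/-- **towers are approximable** -/
theorem tower_approximable_all (hp : 1 ≤ p) (hΩ : St.IsBoundedDomain Ω)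
    (hΛ : St.IsBoundedDomain Λ) {f : V → V} {F : V → Mat} (hf : St.IsHomeo Ω Λ f)
    (hF : St.IsSobolev p Ω f F) (h : Tower p Ω Λ f) : St.DiffeoApproximable p Ω Λ f F :=
  tower_approximable' specSmooth_all hp hΩ hΛ hf hF h

/-- **the equivalence** -/
theorem tower_iff_all (hp : 1 ≤ p) (hΩ : St.IsBoundedDomain Ω)
    (hΛ : St.IsBoundedDomain Λ) {f : V → V} {F : V → Mat} (hf : St.IsHomeo Ω Λ f)
    (hF : St.IsSobolev p Ω f F) :
    TowerApproximable p Ω Λ f F ↔ St.DiffeoApproximable p Ω Λ f F :=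
  tower_iff' specSmooth_all hp hΩ hΛ hf hF

end Vale.Agent.P073.H694.V6
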